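import Vale.Agent.P183L.L7

namespace Vale.Agent.Results.P183.ASevenElement

open Vale.Agent.P183 Vale.Agent.P183L in
/-- The seven element lattice `L7` (the product `2 × 3` with a common complement added) is the
full congruence lattice of a finite algebra. -/
theorem result : Representable L7 := representable_L7

end Vale.Agent.Results.P183.ASevenElement
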