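import Vale.Agent.P183.Dual.Main

namespace Vale.Agent.Results.P183.Closure

universe u

open Vale.Agent.P183 in
/-- Closure properties of the class of representable lattices, and the upper bounded lattices.
(1) A partial order is representable if and only if its order dual is.
(2) Every finite lattice which is lower bounded or upper bounded (its dual is lower bounded) is
representable.
(3) The doubling of an arbitrary down-set of a representable partial order is representable.
(4) Every interval of a representable partial order is representable.
(5) The direct product of two representable partial orders is representable.
(6) For `s`, `b` in a representable partial order, the part of the elements below `s` or above `b`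
is representable. -/
theorem result :
    (∀ (L : Type u) [PartialOrder L], Representable L ↔ Representable Lᵒᵈ) ∧
    (∀ (L : Type u) [Lattice L] [Finite L] [Nonempty L],
      (IsLowerBounded L ∨ IsLowerBounded Lᵒᵈ) → Representable L) ∧
    (∀ (L : Type u) [PartialOrder L] (D : Set L), IsLowerSet D → Representable L →
      Representable {p : L × Bool // p.2 = false → p.1 ∈ D}) ∧
    (∀ (L : Type u) [PartialOrder L] (a b : L), a ≤ b → Representable L →
      Representable {x : L // a ≤ x ∧ x ≤ b}) ∧
    (∀ (L₁ L₂ : Type u) [PartialOrder L₁] [PartialOrder L₂], Representable L₁ → Representable L₂ →
      Representable (L₁ × L₂)) ∧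
    (∀ (L : Type u) [PartialOrder L] (s b : L), Representable L →
      Representable {x : L // x ≤ s ∨ b ≤ x}) := by
  refine ⟨fun L _ => Up.representable_dual_iff.symm, ?_, fun L _ D hD h => Up.representable_down D hD h,
    fun L _ a b hab h => Up.representable_Icc a b hab h, fun L₁ L₂ _ _ h₁ h₂ => Up.representable_prod h₁ h₂,
    fun L _ s b h => Up.representable_cut s b h⟩
  intro L _ _ _ h
  rcases h with h | h
  · exact representable_of_isLowerBounded L h
  · exact Up.representable_of_dual_lowerBounded L h

end Vale.Agent.Results.P183.Closure
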