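import Vale.Agent.P183.Lift.Main

namespace Vale.Agent.Results.P183.Lifting

universe u

open Vale.Agent.P183 in
/-- The lifting theorem.  Let `J0` be a set of join irreducibles of the finite lattice `L` such that
every nontrivial finite join cover of a member of `J0` refines to a join cover by members of `J0`
and such that the join dependency relation has no cycles outside `J0`, in the sense of the rank
`ρ`.  If the join closure of `J0` in `L` is representable, then `L` is representable. -/
theorem result (L : Type u) [Lattice L] [Finite L] [Nonempty L] (J0 : Set L) (ρ : L → ℕ)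
    (hirr : ∀ c ∈ J0, SupIrred c)
    (hbase : ∀ a ∈ J0, ∀ (B : Finset L) (hB : B.Nonempty), a ≤ B.sup' hB id → (∀ b ∈ B, ¬ a ≤ b) →
      ∃ (C : Finset L) (hC : C.Nonempty), (∀ c ∈ C, c ∈ J0 ∧ ∃ b ∈ B, c ≤ b) ∧ a ≤ C.sup' hC id)
    (htop : ∀ a : L, SupIrred a → a ∉ J0 → ∀ (B : Finset L) (hB : B.Nonempty), a ≤ B.sup' hB id →
      (∀ b ∈ B, ¬ a ≤ b) → ∃ (C : Finset L) (hC : C.Nonempty),
        (∀ c ∈ C, SupIrred c ∧ (c ∈ J0 ∨ ρ c < ρ a) ∧ ∃ b ∈ B, c ≤ b) ∧ a ≤ C.sup' hC id)
    (hrep : Representable {x : L // ∃ s : Set L, s ⊆ J0 ∧ IsLUB s x}) : Representable L :=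
  Lift.representable_lift L J0 ρ hirr hbase htop hrep

end Vale.Agent.Results.P183.Lifting
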