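import Vale.Agent.P183.Main

namespace Vale.Agent.Results.P183.LowerBounded

universe u

/-- Every finite lower bounded lattice (no cycles in the join dependency relation, stated through
a rank function) is isomorphic to the congruence lattice of a finite algebra. -/
theorem result (L : Type u) [Lattice L] [Finite L] [Nonempty L]
    (h : Vale.Agent.P183.IsLowerBounded L) : Vale.Agent.P183.Representable L :=
  Vale.Agent.P183.representable_of_isLowerBounded L h

end Vale.Agent.Results.P183.LowerBounded
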