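import Vale.Agent.P183.Up.Main

namespace Vale.Agent.Results.P183.UpDouble

universe u

open Vale.Agent.P183 in
/-- The class of representable lattices is closed under doubling an arbitrary up-set: if `L` is
isomorphic to the congruence lattice of a finite algebra and `U` is an up-set of `L`, then so is
the doubled lattice `L[U]`, consisting of the pairs `(x, false)` for `x` in `L` and `(x, true)` for
`x` in `U`, ordered as a subset of `L × Bool` with `false < true`. -/
theorem result (L : Type u) [PartialOrder L] (U : Set L) (hU : IsUpperSet U)
    (h : Representable L) : Representable {p : L × Bool // p.2 = true → p.1 ∈ U} :=
  Up.representable_up U hU h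

end Vale.Agent.Results.P183.UpDouble
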